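import Vale.Agent.P156.Main

open Vale.Agent.P156

theorem Vale.Agent.Results.P156.NoAtom.result (d : ℕ) (hd : 3 ≤ d) :
    (∀ E : ℝ, E ≠ d → ∀ ε : ℝ, 0 < ε → ∃ n0 : ℕ, ∀ n : ℕ, n0 ≤ n → Even (n * d) →
      (Reg n d).Nonempty ∧ prob n d (fun G => IsEig G E) ≤ ε) ∧
    (∀ D : ℕ, ∀ ε : ℝ, 0 < ε → ∃ n0 : ℕ, ∀ n : ℕ, n0 ≤ n → Even (n * d) →
      prob n d (fun G => ∃ E : ℝ, E ≠ d ∧ DegLe D E ∧ IsEig G E) ≤ ε) :=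
  ⟨partA_all d hd, partB_all d hd⟩
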